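import Vale.Agent.P126.Main

/-!
# Duality of metric entropy up to one logarithm
-/

open Vale.Agent.P126
open scoped Pointwise

theorem Vale.Agent.Results.P126.LogDuality.result :
    (∃ C : ℝ, 0 < C ∧ ∀ (n : ℕ), 1 ≤ n →
      ∀ K L : Set (EuclideanSpace ℝ (Fin n)), Body K → Body L →
        Real.log (covN K L) ≤ (C * Real.log (n + 1))
          * Real.log (covN (pol L) ((C * Real.log (n + 1))⁻¹ • pol K)) ∧
        (C * Real.log (n + 1))⁻¹ * Real.log (covN (pol L) ((C * Real.log (n + 1)) • pol K))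
          ≤ Real.log (covN K L)) ∧
    (∃ C : ℝ, 0 < C ∧ ∀ (n : ℕ) (K L : Set (EuclideanSpace ℝ (Fin n))), Body K → Body L →
      (∀ a : ℝ, a = C * (1 + Real.log (1 + Real.log (covN K L))) →
        Real.log (covN K L) ≤ a * Real.log (covN (pol L) (a⁻¹ • pol K))) ∧
      (∀ a : ℝ, a = C * (1 + Real.log (1 + Real.log (covN (pol L) (pol K)))) →
        a⁻¹ * Real.log (covN (pol L) (a • pol K)) ≤ Real.log (covN K L))) ∧
    (∀ ε : ℝ, 0 < ε → ∃ b C : ℝ, 0 < b ∧ 0 < C ∧ ∀ (n : ℕ), 1 ≤ n →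
      ∀ K L : Set (EuclideanSpace ℝ (Fin n)), Body K → Body L →
        Real.log (covN K L) ≤ b * Real.log (covN (pol L) ((C * (n : ℝ) ^ ε)⁻¹ • pol K)) ∧
        b⁻¹ * Real.log (covN (pol L) ((C * (n : ℝ) ^ ε) • pol K)) ≤ Real.log (covN K L)) ∧
    (∀ ε : ℝ, 0 < ε → ∃ b C : ℝ, 0 < b ∧ 0 < C ∧
      ∀ (n : ℕ) (K L : Set (EuclideanSpace ℝ (Fin n))), Body K → Body L →
        (∀ a : ℝ, a = C * (1 + Real.log (covN K L)) ^ ε →
          Real.log (covN K L) ≤ b * Real.log (covN (pol L) (a⁻¹ • pol K))) ∧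
        (∀ a : ℝ, a = C * (1 + Real.log (covN (pol L) (pol K))) ^ ε →
          b⁻¹ * Real.log (covN (pol L) (a • pol K)) ≤ Real.log (covN K L))) :=
  ⟨dim_log, free_log, dim_pow, free_pow⟩
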